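import Mathlib

/-!
One-variable analysis used for the affine Bernstein problem on separable functions:
a convex function `f` on an open interval `J`, such that `(f'')^e` is concave on `J`
(`-1 < e < -1/2`), stays bounded near every finite end of `J`.
-/

namespace Vale.Agent.Helper18.P252

open Set Filter Topology

/-- the derivative of a `C^(m+1)` function on an open set is `C^m` there -/
theorem cdo_deriv {J : Set ℝ} (hJo : IsOpen J) {f : ℝ → ℝ} {m : ℕ}
    (hf : ContDiffOn ℝ ((m : WithTop ℕ∞) + 1) f J) : ContDiffOn ℝ m (deriv f) J :=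
  ((contDiffOn_succ_iff_deriv_of_isOpen hJo).1 hf).2.2

/-- monotonicity on `[t0, b)` from a nonnegative derivative -/
theorem mono_of_hasDerivAt {F F' : ℝ → ℝ} {t0 b : ℝ}
    (h : ∀ t ∈ Ico t0 b, HasDerivAt F (F' t) t) (hnn : ∀ t ∈ Ioo t0 b, 0 ≤ F' t) :
    ∀ t ∈ Ico t0 b, F t0 ≤ F t := by
  intro t ht
  have hmono : MonotoneOn F (Ico t0 b) := by
    apply monotoneOn_of_deriv_nonneg (convex_Ico t0 b)
    · exact fun s hs => (h s hs).continuousAt.continuousWithinAt
    · rw [interior_Ico]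
      exact fun s hs => (h s (Ioo_subset_Ico_self hs)).differentiableAt.differentiableWithinAt
    · rw [interior_Ico]
      intro s hs
      rw [(h s (Ioo_subset_Ico_self hs)).deriv]
      exact hnn s hs
  exact hmono ⟨le_rfl, lt_of_le_of_lt ht.1 ht.2⟩ ht ht.1

/-- **Boundedness at a finite right end.** -/
theorem bdd_right (e : ℝ) (he1 : -1 < e) (he2 : e < -(1 / 2)) (J : Set ℝ) (hJo : IsOpen J)
    (f : ℝ → ℝ) (hf : ContDiffOn ℝ 4 f J) (hg : ∀ t ∈ J, 0 < deriv (deriv f) t)
    (hcc : ∀ t ∈ J, deriv (deriv (fun s => (deriv (deriv f) s) ^ e)) t ≤ 0)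
    (t0 b : ℝ) (ht0 : t0 < b) (hsub : Ico t0 b ⊆ J) :
    ∃ M : ℝ, ∀ t ∈ Ico t0 b, |f t| ≤ M := by
  have h43 : ((3 : ℕ) : WithTop ℕ∞) + 1 = 4 := by norm_num
  have h32 : ((2 : ℕ) : WithTop ℕ∞) + 1 = 3 := by norm_num
  have h21 : ((1 : ℕ) : WithTop ℕ∞) + 1 = 2 := by norm_num
  have hf3 : ContDiffOn ℝ 3 (deriv f) J := by
    have := cdo_deriv hJo (f := f) (m := 3) (by rw [h43]; exact hf)
    exact_mod_cast this
  have hg2 : ContDiffOn ℝ 2 (deriv (deriv f)) J := by
    have := cdo_deriv hJo (f := deriv f) (m := 2) (by rw [h32]; exact hf3)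
    exact_mod_cast this
  set g : ℝ → ℝ := deriv (deriv f) with hgdef
  set φ : ℝ → ℝ := fun s => (g s) ^ e with hφdef
  have hφ2 : ContDiffOn ℝ 2 φ J := hg2.rpow_const_of_ne (fun t ht => (hg t ht).ne')
  have hφ1 : ContDiffOn ℝ 1 (deriv φ) J := by
    have := cdo_deriv hJo (f := φ) (m := 1) (by rw [h21]; exact hφ2)
    exact_mod_cast this
  have hfd : ∀ t ∈ J, DifferentiableAt ℝ f t := fun t ht =>
    (hf.differentiableOn (by norm_num)).differentiableAt (hJo.mem_nhds ht)
  have hfdd : ∀ t ∈ J, DifferentiableAt ℝ (deriv f) t := fun t ht =>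
    (hf3.differentiableOn (by norm_num)).differentiableAt (hJo.mem_nhds ht)
  have hφd : ∀ t ∈ J, DifferentiableAt ℝ φ t := fun t ht =>
    (hφ2.differentiableOn (by norm_num)).differentiableAt (hJo.mem_nhds ht)
  have hφdd : ∀ t ∈ J, DifferentiableAt ℝ (deriv φ) t := fun t ht =>
    (hφ1.differentiableOn (by norm_num)).differentiableAt (hJo.mem_nhds ht)
  have hφpos : ∀ t ∈ J, 0 < φ t := fun t ht => Real.rpow_pos_of_pos (hg t ht) e
  -- concavity of φ on [t0, b)
  have hconc : ConcaveOn ℝ (Ico t0 b) φ := by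
    apply concaveOn_of_deriv2_nonpos (convex_Ico t0 b)
    · exact fun t ht => (hφd t (hsub ht)).continuousAt.continuousWithinAt
    · rw [interior_Ico]
      exact fun t ht => (hφd t (hsub (Ioo_subset_Ico_self ht))).differentiableWithinAt
    · rw [interior_Ico]
      exact fun t ht => (hφdd t (hsub (Ioo_subset_Ico_self ht))).differentiableWithinAt
    · rw [interior_Ico]
      intro t ht
      exact hcc t (hsub (Ioo_subset_Ico_self ht))
  have hb0 : 0 < b - t0 := sub_pos.2 ht0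
  have ht0D : t0 ∈ Ico t0 b := ⟨le_rfl, ht0⟩
  -- linear lower bound for φ
  have hlin : ∀ t ∈ Ico t0 b, φ t0 * (b - t) ≤ φ t * (b - t0) := by
    intro t ht
    have hev : ∀ᶠ s in 𝓝[<] b, (s - t) * φ t0 ≤ φ t * (s - t0) := by
      filter_upwards [Ioo_mem_nhdsLT ht.2] with s hs
      have hst0 : 0 < s - t0 := by linarith [ht.1, hs.1]
      have hsD : s ∈ Ico t0 b := ⟨by linarith [ht.1, hs.1], hs.2⟩
      have ha : 0 ≤ (s - t) / (s - t0) := div_nonneg (by linarith [hs.1]) hst0.le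
      have hb' : 0 ≤ (t - t0) / (s - t0) := div_nonneg (by linarith [ht.1]) hst0.le
      have hab : (s - t) / (s - t0) + (t - t0) / (s - t0) = 1 := by
        field_simp
        ring
      have h := hconc.2 ht0D hsD ha hb' hab
      have hcomb : ((s - t) / (s - t0)) • t0 + ((t - t0) / (s - t0)) • s = t := by
        simp only [smul_eq_mul]
        field_simp
        ring
      rw [hcomb] at h
      simp only [smul_eq_mul] at h
      have hφs : 0 < φ s := hφpos s (hsub hsD)
      have h2 : (s - t) / (s - t0) * φ t0 ≤ φ t := by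
        have : 0 ≤ (t - t0) / (s - t0) * φ s :=
          mul_nonneg (div_nonneg (by linarith [ht.1]) hst0.le) hφs.le
        linarith
      rw [div_mul_eq_mul_div, div_le_iff₀ hst0] at h2
      exact h2
    have hlim : Tendsto (fun s => φ t * (s - t0) - (s - t) * φ t0) (𝓝[<] b)
        (𝓝 (φ t * (b - t0) - (b - t) * φ t0)) := by
      have hc : Continuous (fun s : ℝ => φ t * (s - t0) - (s - t) * φ t0) := by fun_prop
      exact (hc.tendsto b).mono_left nhdsWithin_le_nhds
    have h3 := ge_of_tendsto hlim (b := 0) (by filter_upwards [hev] with s hs; linarith)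
    linarith
  set κ : ℝ := φ t0 / (b - t0) with hκdef
  have hκ : 0 < κ := div_pos (hφpos t0 (hsub ht0D)) hb0
  have hκφ : ∀ t ∈ Ico t0 b, κ * (b - t) ≤ φ t := by
    intro t ht
    have := hlin t ht
    rw [hκdef, div_mul_eq_mul_div, div_le_iff₀ hb0]
    exact this
  have heneg : e < 0 := by linarith
  have he0 : e ≠ 0 := ne_of_lt heneg
  have hinv : e * e⁻¹ = 1 := mul_inv_cancel₀ he0
  set m : ℝ := -e⁻¹ with hmdef
  have hm1 : 1 < m := by
    rw [hmdef]
    by_contra h
    rw [not_lt] at h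
    nlinarith
  have hm2 : m < 2 := by
    rw [hmdef]
    by_contra h
    rw [not_lt] at h
    nlinarith
  have hgbound : ∀ t ∈ Ico t0 b, g t ≤ (κ * (b - t)) ^ (-m) := by
    intro t ht
    have hgt := hg t (hsub ht)
    have h1 : g t = (φ t) ^ e⁻¹ := by
      simp only [hφdef]
      rw [Real.rpow_rpow_inv hgt.le he0]
    rw [h1, hmdef, neg_neg]
    exact Real.rpow_le_rpow_of_nonpos (mul_pos hκ (sub_pos.2 ht.2)) (hκφ t ht)
      (by linarith)
  -- comparison functions
  set δ : ℝ := m - 1 with hδdef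
  have hδ0 : 0 < δ := by linarith
  have hδ1 : δ < 1 := by linarith
  set C1 : ℝ := κ ^ (-m) / δ with hC1
  have hpow : ∀ (r : ℝ) (t : ℝ), t < b →
      HasDerivAt (fun s : ℝ => (b - s) ^ r) (-1 * r * (b - t) ^ (r - 1)) t := by
    intro r t ht
    have h1 : HasDerivAt (fun s : ℝ => b - s) (-1) t := by
      simpa using (hasDerivAt_id t).const_sub b
    exact h1.rpow_const (Or.inl (ne_of_gt (sub_pos.2 ht)))
  -- first comparison: f' ≤ C1 (b - t)^(-δ) - P t0
  set P : ℝ → ℝ := fun t => C1 * (b - t) ^ (-δ) - deriv f t with hPdef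
  have hPder : ∀ t ∈ Ico t0 b,
      HasDerivAt P (C1 * (-1 * (-δ) * (b - t) ^ (-δ - 1)) - g t) t := by
    intro t ht
    exact ((hpow (-δ) t ht.2).const_mul C1).sub (hfdd t (hsub ht)).hasDerivAt
  have hPmono : ∀ t ∈ Ico t0 b, P t0 ≤ P t := by
    apply mono_of_hasDerivAt hPder
    intro t ht
    have hbt : 0 < b - t := sub_pos.2 ht.2
    have h1 := hgbound t (Ioo_subset_Ico_self ht)
    have h2 : (κ * (b - t)) ^ (-m) = κ ^ (-m) * (b - t) ^ (-m) :=
      Real.mul_rpow hκ.le hbt.le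
    have h3 : -δ - 1 = -m := by rw [hδdef]; ring
    rw [h3]
    have h4 : C1 * (-1 * (-δ) * (b - t) ^ (-m)) = κ ^ (-m) * (b - t) ^ (-m) := by
      rw [hC1]
      field_simp
    rw [h4, ← h2]
    linarith
  -- second comparison
  set Q : ℝ → ℝ := fun t => -(C1 / (1 - δ)) * (b - t) ^ (1 - δ) - P t0 * t - f t with hQdef
  have hQder : ∀ t ∈ Ico t0 b,
      HasDerivAt Q (-(C1 / (1 - δ)) * (-1 * (1 - δ) * (b - t) ^ (1 - δ - 1)) - P t0 * 1
        - deriv f t) t := by
    intro t ht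
    exact (((hpow (1 - δ) t ht.2).const_mul (-(C1 / (1 - δ)))).sub
      ((hasDerivAt_id t).const_mul (P t0))).sub (hfd t (hsub ht)).hasDerivAt
  have hQmono : ∀ t ∈ Ico t0 b, Q t0 ≤ Q t := by
    apply mono_of_hasDerivAt hQder
    intro t ht
    have h1 := hPmono t (Ioo_subset_Ico_self ht)
    have h3 : 1 - δ - 1 = -δ := by ring
    rw [h3]
    have h4 : -(C1 / (1 - δ)) * (-1 * (1 - δ) * (b - t) ^ (-δ)) = C1 * (b - t) ^ (-δ) := by
      have : (1 - δ) ≠ 0 := by linarith
      field_simp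
    rw [h4]
    simp only [hPdef] at h1 ⊢
    linarith
  -- lower bound: f is convex
  have hDmono : ∀ t ∈ Ico t0 b, deriv f t0 ≤ deriv f t := by
    apply mono_of_hasDerivAt (F' := g) (fun t ht => (hfdd t (hsub ht)).hasDerivAt)
    exact fun t ht => (hg t (hsub (Ioo_subset_Ico_self ht))).le
  set R : ℝ → ℝ := fun t => f t - deriv f t0 * t with hRdef
  have hRder : ∀ t ∈ Ico t0 b, HasDerivAt R (deriv f t - deriv f t0 * 1) t := by
    intro t ht
    exact (hfd t (hsub ht)).hasDerivAt.sub ((hasDerivAt_id t).const_mul (deriv f t0))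
  have hRmono : ∀ t ∈ Ico t0 b, R t0 ≤ R t := by
    apply mono_of_hasDerivAt hRder
    intro t ht
    have := hDmono t (Ioo_subset_Ico_self ht)
    linarith
  refine ⟨|P t0| * (|t0| + |b|) + |Q t0| + |deriv f t0| * (|t0| + |b|) + |R t0|, ?_⟩
  intro t ht
  have hT : |t| ≤ |t0| + |b| :=
    abs_le.2 ⟨by linarith [neg_abs_le t0, abs_nonneg b, ht.1],
      by linarith [le_abs_self b, abs_nonneg t0, ht.2]⟩
  have hbt : 0 < b - t := sub_pos.2 ht.2
  have hA1 : -(P t0 * t) ≤ |P t0| * (|t0| + |b|) :=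
    calc -(P t0 * t) ≤ |P t0 * t| := neg_le_abs _
      _ = |P t0| * |t| := abs_mul _ _
      _ ≤ |P t0| * (|t0| + |b|) := mul_le_mul_of_nonneg_left hT (abs_nonneg _)
  have hA2 : -(|deriv f t0| * (|t0| + |b|)) ≤ deriv f t0 * t :=
    calc -(|deriv f t0| * (|t0| + |b|)) ≤ -(|deriv f t0| * |t|) :=
          neg_le_neg (mul_le_mul_of_nonneg_left hT (abs_nonneg _))
      _ = -|deriv f t0 * t| := by rw [abs_mul]
      _ ≤ deriv f t0 * t := neg_abs_le _
  have hq := hQmono t ht
  have hr := hRmono t ht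
  have hpw : 0 ≤ (C1 / (1 - δ)) * (b - t) ^ (1 - δ) := by
    have hC1pos : 0 < C1 := div_pos (Real.rpow_pos_of_pos hκ _) hδ0
    have : 0 < 1 - δ := by linarith
    positivity
  simp only [hQdef] at hq
  simp only [hRdef] at hr
  rw [abs_le]
  constructor
  · have := neg_abs_le (f t0 - deriv f t0 * t0)
    have h5 : 0 ≤ |P t0| * (|t0| + |b|) := by positivity
    have h6 : 0 ≤ |-(C1 / (1 - δ)) * (b - t0) ^ (1 - δ) - P t0 * t0 - f t0| := abs_nonneg _
    linarith
  · have := le_abs_self (-(C1 / (1 - δ)) * (b - t0) ^ (1 - δ) - P t0 * t0 - f t0)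
    have h5 : 0 ≤ |deriv f t0| * (|t0| + |b|) := by positivity
    have h6 : 0 ≤ |f t0 - deriv f t0 * t0| := abs_nonneg _
    linarith [neg_abs_le (-(C1 / (1 - δ)) * (b - t0) ^ (1 - δ) - P t0 * t0 - f t0)]

/-- Under the closure property `hcl` the interval `J` has no finite right end. -/
theorem upper_unbounded (e : ℝ) (he1 : -1 < e) (he2 : e < -(1 / 2)) (J : Set ℝ) (hJo : IsOpen J)
    (hJc : J.OrdConnected)
    (f : ℝ → ℝ) (hf : ContDiffOn ℝ 4 f J) (hg : ∀ t ∈ J, 0 < deriv (deriv f) t)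
    (hcc : ∀ t ∈ J, deriv (deriv (fun s => (deriv (deriv f) s) ^ e)) t ≤ 0)
    (hcl : ∀ (τ : ℕ → ℝ) (β : ℝ), (∀ k, τ k ∈ J) → Tendsto τ atTop (𝓝 β) →
      (∃ M : ℝ, ∀ k, |f (τ k)| ≤ M) → β ∈ J)
    (t0 : ℝ) (ht0 : t0 ∈ J) (b : ℝ) (hb : t0 < b) : b ∈ J := by
  by_contra hbJ
  have hlt : ∀ t ∈ J, t < b := by
    intro t ht
    by_contra h
    rw [not_lt] at h
    exact hbJ (hJc.out ht0 ht ⟨hb.le, h⟩)
  have hbdd : BddAbove J := ⟨b, fun t ht => (hlt t ht).le⟩
  have hne : J.Nonempty := ⟨t0, ht0⟩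
  set β := sSup J with hβ
  have hβJ : β ∉ J := by
    intro hβJ
    obtain ⟨ε, hε, hball⟩ := Metric.isOpen_iff.1 hJo β hβJ
    have hmem : β + ε / 2 ∈ J := by
      apply hball
      rw [Metric.mem_ball, Real.dist_eq]
      have : β + ε / 2 - β = ε / 2 := by ring
      rw [this, abs_of_pos (by linarith)]
      linarith
    have := le_csSup hbdd hmem
    linarith
  have ht0β : t0 < β := lt_of_le_of_ne (le_csSup hbdd ht0) (fun h => hβJ (h ▸ ht0))
  have hsub : Ico t0 β ⊆ J := by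
    intro t ht
    obtain ⟨a, haJ, hta⟩ := exists_lt_of_lt_csSup hne ht.2
    exact hJc.out ht0 haJ ⟨ht.1, hta.le⟩
  obtain ⟨M, hM⟩ := bdd_right e he1 he2 J hJo f hf hg hcc t0 β ht0β hsub
  have hτmem : ∀ k : ℕ, β - (β - t0) * (1 / ((k : ℝ) + 1)) ∈ Ico t0 β := by
    intro k
    have hk : (0 : ℝ) < (k : ℝ) + 1 := by positivity
    have h1 : 1 / ((k : ℝ) + 1) ≤ 1 := by
      rw [div_le_one hk]
      linarith [Nat.cast_nonneg (α := ℝ) k]
    have h2 : 0 < 1 / ((k : ℝ) + 1) := by positivity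
    have h3 : 0 < β - t0 := sub_pos.2 ht0β
    constructor
    · nlinarith
    · nlinarith
  have hτlim : Tendsto (fun k : ℕ => β - (β - t0) * (1 / ((k : ℝ) + 1))) atTop (𝓝 β) := by
    have h := (tendsto_const_nhds (x := β - t0)).mul
      (tendsto_one_div_add_atTop_nhds_zero_nat (𝕜 := ℝ))
    have h2 := (tendsto_const_nhds (x := β)).sub h
    simpa using h2
  exact hβJ (hcl _ β (fun k => hsub (hτmem k)) hτlim ⟨M, fun k => hM _ (hτmem k)⟩)

/-- second derivative of a reflected function -/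
theorem deriv2_comp_neg (F : ℝ → ℝ) :
    deriv (deriv (fun t => F (-t))) = fun t => deriv (deriv F) (-t) := by
  have hd1 : deriv (fun t => F (-t)) = fun t => -deriv F (-t) := by
    funext t
    exact deriv_comp_neg F t
  funext t
  rw [hd1]
  have h2 : (fun t => -deriv F (-t)) = -(fun t => deriv F (-t)) := rfl
  rw [h2, deriv.neg, deriv_comp_neg (deriv F) t, neg_neg]

/-- Under the closure property `hcl` the interval `J` has no finite left end. -/
theorem lower_unbounded (e : ℝ) (he1 : -1 < e) (he2 : e < -(1 / 2)) (J : Set ℝ) (hJo : IsOpen J)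
    (hJc : J.OrdConnected)
    (f : ℝ → ℝ) (hf : ContDiffOn ℝ 4 f J) (hg : ∀ t ∈ J, 0 < deriv (deriv f) t)
    (hcc : ∀ t ∈ J, deriv (deriv (fun s => (deriv (deriv f) s) ^ e)) t ≤ 0)
    (hcl : ∀ (τ : ℕ → ℝ) (β : ℝ), (∀ k, τ k ∈ J) → Tendsto τ atTop (𝓝 β) →
      (∃ M : ℝ, ∀ k, |f (τ k)| ≤ M) → β ∈ J)
    (t0 : ℝ) (ht0 : t0 ∈ J) (a : ℝ) (ha : a < t0) : a ∈ J := by
  have hd2 := deriv2_comp_neg f
  have hd3 := deriv2_comp_neg (fun r => (deriv (deriv f) r) ^ e)
  have hφeq : (fun s => (deriv (deriv (fun t => f (-t))) s) ^ e) =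
      fun s => (fun r => (deriv (deriv f) r) ^ e) (-s) := by
    rw [hd2]
  have hJo' : IsOpen {t : ℝ | -t ∈ J} := hJo.preimage continuous_neg
  have hJc' : ({t : ℝ | -t ∈ J}).OrdConnected :=
    ⟨fun x hx y hy z hz => hJc.out hy hx ⟨neg_le_neg hz.2, neg_le_neg hz.1⟩⟩
  have hf' : ContDiffOn ℝ 4 (fun t => f (-t)) {t : ℝ | -t ∈ J} :=
    hf.comp (contDiff_neg.contDiffOn) (fun t ht => ht)
  have hg' : ∀ t ∈ {t : ℝ | -t ∈ J}, 0 < deriv (deriv (fun t => f (-t))) t := by
    intro t ht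
    rw [hd2]
    exact hg (-t) ht
  have hcc' : ∀ t ∈ {t : ℝ | -t ∈ J},
      deriv (deriv (fun s => (deriv (deriv (fun t => f (-t))) s) ^ e)) t ≤ 0 := by
    intro t ht
    rw [hφeq, hd3]
    exact hcc (-t) ht
  have hcl' : ∀ (τ : ℕ → ℝ) (β : ℝ), (∀ k, τ k ∈ {t : ℝ | -t ∈ J}) → Tendsto τ atTop (𝓝 β) →
      (∃ M : ℝ, ∀ k, |(fun t => f (-t)) (τ k)| ≤ M) → β ∈ {t : ℝ | -t ∈ J} := by
    intro τ β hτ hlim hM
    exact hcl (fun k => -τ k) (-β) hτ hlim.neg hM
  have h := upper_unbounded e he1 he2 {t : ℝ | -t ∈ J} hJo' hJc' (fun t => f (-t)) hf' hg' hcc'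
    hcl' (-t0) (by simpa using ht0) (-a) (neg_lt_neg ha)
  simpa using h

/-- A positive function on `ℝ` with nonpositive second derivative is constant. -/
theorem deriv_eq_zero_of_pos_of_concave (φ : ℝ → ℝ) (h1 : Differentiable ℝ φ)
    (h2 : Differentiable ℝ (deriv φ)) (hpos : ∀ t, 0 < φ t)
    (hcc : ∀ t, deriv (deriv φ) t ≤ 0) (t0 : ℝ) : deriv φ t0 = 0 := by
  have hanti : Antitone (deriv φ) := antitone_of_deriv_nonpos h2 hcc
  by_contra hne
  rcases lt_or_gt_of_ne hne with hs | hs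
  · set s := deriv φ t0 with hsdef
    have key : ∀ y, t0 ≤ y → φ y - φ t0 ≤ s * (y - t0) := by
      intro y hy
      have := (convex_Ici t0).image_sub_le_mul_sub_of_deriv_le (f := φ) (C := s)
        h1.continuous.continuousOn h1.differentiableOn
        (fun x hx => by
          rw [interior_Ici] at hx
          exact hanti (le_of_lt hx)) t0 Set.self_mem_Ici y hy hy
      exact this
    have hy := key (t0 + (φ t0 / (-s) + 1)) (by
      have : 0 < φ t0 / (-s) := div_pos (hpos t0) (by linarith)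
      linarith)
    have hp := hpos (t0 + (φ t0 / (-s) + 1))
    have e : s * (t0 + (φ t0 / (-s) + 1) - t0) = -φ t0 + s := by
      have hs' : s ≠ 0 := ne_of_lt hs
      field_simp
      ring
    rw [e] at hy
    linarith
  · set s := deriv φ t0 with hsdef
    have key : ∀ y, y ≤ t0 → s * (t0 - y) ≤ φ t0 - φ y := by
      intro y hy
      have := (convex_Iic t0).mul_sub_le_image_sub_of_le_deriv (f := φ) (C := s)
        h1.continuous.continuousOn h1.differentiableOn
        (fun x hx => by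
          rw [interior_Iic] at hx
          exact hanti (le_of_lt hx)) y hy t0 Set.self_mem_Iic hy
      exact this
    have hy := key (t0 - (φ t0 / s + 1)) (by
      have : 0 < φ t0 / s := div_pos (hpos t0) hs
      linarith)
    have hp := hpos (t0 - (φ t0 / s + 1))
    have e : s * (t0 - (t0 - (φ t0 / s + 1))) = φ t0 + s := by
      have hs' : s ≠ 0 := ne_of_gt hs
      field_simp
      ring
    rw [e] at hy
    linarith

/-- A function with constant second derivative `a` is a quadratic polynomial. -/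
theorem quadratic_of_deriv2_const (f : ℝ → ℝ) (hf : Differentiable ℝ f)
    (hf' : Differentiable ℝ (deriv f)) (a : ℝ) (ha : ∀ t, deriv (deriv f) t = a) (t : ℝ) :
    f t = a / 2 * t ^ 2 + deriv f 0 * t + f 0 := by
  have hd1 : ∀ s, deriv f s = a * s + deriv f 0 := by
    intro s
    have hdiff : Differentiable ℝ (fun s => deriv f s - a * s) := by fun_prop
    have hz : ∀ s, deriv (fun s => deriv f s - a * s) s = 0 := by
      intro s
      have h1 : HasDerivAt (fun s => deriv f s - a * s) (deriv (deriv f) s - a * 1) s :=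
        (hf' s).hasDerivAt.sub ((hasDerivAt_id s).const_mul a)
      rw [h1.deriv, ha]; ring
    have := is_const_of_deriv_eq_zero hdiff hz s 0
    simp at this
    linarith
  have hdiff : Differentiable ℝ (fun s => f s - (a / 2 * s ^ 2 + deriv f 0 * s)) := by fun_prop
  have hz : ∀ s, deriv (fun s => f s - (a / 2 * s ^ 2 + deriv f 0 * s)) s = 0 := by
    intro s
    have h1 : HasDerivAt (fun s => f s - (a / 2 * s ^ 2 + deriv f 0 * s))
        (deriv f s - (a / 2 * (2 * s) + deriv f 0 * 1)) s := by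
      have hsq : HasDerivAt (fun s : ℝ => s ^ 2) (2 * s) s := by
        simpa using hasDerivAt_pow 2 s
      exact (hf s).hasDerivAt.sub ((hsq.const_mul (a / 2)).add ((hasDerivAt_id s).const_mul _))
    rw [h1.deriv, hd1]; ring
  have := is_const_of_deriv_eq_zero hdiff hz t 0
  simp at this
  linarith

/-- **One-variable rigidity.** If `f` is `C^4` and strictly convex on the open interval `J`,
`(f'')^e` is concave on `J` (`-1 < e < -1/2`), and every limit of a sequence of `J` along which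
`f` stays bounded lies in `J`, then `J = ℝ` and `f''` is constant. -/
theorem oneDim (e : ℝ) (he1 : -1 < e) (he2 : e < -(1 / 2)) (J : Set ℝ) (hJo : IsOpen J)
    (hJc : J.OrdConnected) (hne : J.Nonempty)
    (f : ℝ → ℝ) (hf : ContDiffOn ℝ 4 f J) (hg : ∀ t ∈ J, 0 < deriv (deriv f) t)
    (hcc : ∀ t ∈ J, deriv (deriv (fun s => (deriv (deriv f) s) ^ e)) t ≤ 0)
    (hcl : ∀ (τ : ℕ → ℝ) (β : ℝ), (∀ k, τ k ∈ J) → Tendsto τ atTop (𝓝 β) →
      (∃ M : ℝ, ∀ k, |f (τ k)| ≤ M) → β ∈ J) :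
    J = univ ∧ ∀ t, deriv (deriv f) t = deriv (deriv f) 0 := by
  have hJu : J = univ := by
    obtain ⟨t0, ht0⟩ := hne
    ext t
    simp only [mem_univ, iff_true]
    rcases lt_trichotomy t t0 with h | h | h
    · exact lower_unbounded e he1 he2 J hJo hJc f hf hg hcc hcl t0 ht0 t h
    · exact h ▸ ht0
    · exact upper_unbounded e he1 he2 J hJo hJc f hf hg hcc hcl t0 ht0 t h
  refine ⟨hJu, ?_⟩
  subst hJu
  have heneg : e < 0 := by linarith
  have he0 : e ≠ 0 := ne_of_lt heneg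
  have hfc : ContDiff ℝ 4 f := contDiffOn_univ.1 hf
  have hf1 : ContDiff ℝ 3 (deriv f) :=
    ContDiff.deriv' (by
      have : ((3 : WithTop ℕ∞) + 1) = 4 := by norm_num
      rw [this]; exact hfc)
  have hg2 : ContDiff ℝ 2 (deriv (deriv f)) :=
    ContDiff.deriv' (by
      have : ((2 : WithTop ℕ∞) + 1) = 3 := by norm_num
      rw [this]; exact hf1)
  have hgpos : ∀ t, 0 < deriv (deriv f) t := fun t => hg t (mem_univ t)
  have hφ2 : ContDiff ℝ 2 (fun s => (deriv (deriv f) s) ^ e) :=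
    hg2.rpow_const_of_ne (fun t => (hgpos t).ne')
  have hφd : Differentiable ℝ (fun s => (deriv (deriv f) s) ^ e) :=
    hφ2.differentiable (by norm_num)
  have hφ1 : ContDiff ℝ 1 (deriv (fun s => (deriv (deriv f) s) ^ e)) :=
    ContDiff.deriv' (by
      have : ((1 : WithTop ℕ∞) + 1) = 2 := by norm_num
      rw [this]; exact hφ2)
  have hφdd : Differentiable ℝ (deriv (fun s => (deriv (deriv f) s) ^ e)) :=
    hφ1.differentiable (by norm_num)
  have hd0 : ∀ t, deriv (fun s => (deriv (deriv f) s) ^ e) t = 0 :=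
    deriv_eq_zero_of_pos_of_concave _ hφd hφdd (fun t => Real.rpow_pos_of_pos (hgpos t) e)
      (fun t => hcc t (mem_univ t))
  intro t
  have hφc : (deriv (deriv f) t) ^ e = (deriv (deriv f) 0) ^ e :=
    is_const_of_deriv_eq_zero hφd hd0 t 0
  exact Real.rpow_left_injOn he0 (hgpos t).le (hgpos 0).le hφc

end Vale.Agent.Helper18.P252
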