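import Mathlib
import Vale.Agent.Results.P252.RadialBall

/-!
# P252: radial solutions over arbitrary convex domains

Helper lemmas for the hand-in `P252.RadialComplete`: if `u(x) = h(|x|²/2)` on a nonempty open
convex set `Ω ⊆ ℝ^n` (`n ≥ 2`) has positive definite Hessian, solves (AM) on `Ω` and has a closed
graph, then `Ω = ℝ^n` and `u` is a quadratic polynomial.
-/

namespace Vale.Agent.Helper18.P252

open Finset Filter Topology Matrix
open Vale.Agent.Results.P252.RadialBall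

variable {n : ℕ}

theorem continuous_hsq : Continuous (hsq : (Fin n → ℝ) → ℝ) := by
  unfold hsq
  fun_prop

theorem hsq_nonneg (x : Fin n → ℝ) : 0 ≤ hsq x := by
  unfold hsq
  have : 0 ≤ ∑ k, x k ^ 2 := Finset.sum_nonneg (fun k _ => sq_nonneg _)
  linarith

theorem hsq_smul (t : ℝ) (x : Fin n → ℝ) : hsq (t • x) = t ^ 2 * hsq x := by
  unfold hsq
  simp only [Pi.smul_apply, smul_eq_mul, mul_pow]
  rw [← Finset.mul_sum]
  ring

theorem hsq_neg (x : Fin n → ℝ) : hsq (-x) = hsq x := by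
  unfold hsq
  simp

theorem hsq_zero : hsq (0 : Fin n → ℝ) = 0 := by
  unfold hsq
  simp

theorem hsq_eq_zero {x : Fin n → ℝ} (h : hsq x = 0) : x = 0 := by
  unfold hsq at h
  have h1 : ∑ k, x k ^ 2 = 0 := by linarith
  have h2 := (Finset.sum_eq_zero_iff_of_nonneg (fun k _ => sq_nonneg (x k))).mp h1
  funext k
  have h3 := h2 k (Finset.mem_univ k)
  simpa using h3

theorem abs_le_of_hsq_le {x : Fin n → ℝ} {c : ℝ} (h : hsq x ≤ c) (k : Fin n) :
    |x k| ≤ Real.sqrt (2 * c) := by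
  have h1 : x k ^ 2 ≤ ∑ j, x j ^ 2 :=
    Finset.single_le_sum (f := fun j => x j ^ 2) (fun j _ => sq_nonneg (x j)) (Finset.mem_univ k)
  have h2 : x k ^ 2 ≤ 2 * c := by
    unfold hsq at h
    linarith
  exact Real.abs_le_sqrt h2

theorem exists_hsq_eq (hn : 0 < n) {s : ℝ} (hs : 0 ≤ s) : ∃ x : Fin n → ℝ, hsq x = s := by
  refine ⟨Pi.single ⟨0, hn⟩ (Real.sqrt (2 * s)), ?_⟩
  unfold hsq
  rw [Finset.sum_eq_single (⟨0, hn⟩ : Fin n)]
  · rw [Pi.single_eq_same, Real.sq_sqrt (by linarith)]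
    ring
  · intro b _ hb
    rw [Pi.single_eq_of_ne hb]
    ring
  · intro hh
    exact absurd (Finset.mem_univ _) hh

/-- The closed-graph hypothesis: a limit of points of `Ω` at whose level `h` is continuous
belongs to `Ω`. -/
theorem mem_of_closed_graph {Ω : Set (Fin n → ℝ)} {h : ℝ → ℝ}
    (hcl : IsClosed {p : (Fin n → ℝ) × ℝ | p.1 ∈ Ω ∧ p.2 = h (hsq p.1)})
    {z : Fin n → ℝ} (hz : z ∈ closure Ω) (hc : ContinuousAt h (hsq z)) : z ∈ Ω := by
  obtain ⟨zs, hzs, hlim⟩ := mem_closure_iff_seq_limit.mp hz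
  have h1 : Tendsto (fun k => (zs k, h (hsq (zs k)))) atTop (𝓝 (z, h (hsq z))) := by
    refine Tendsto.prodMk_nhds hlim ?_
    exact hc.tendsto.comp (continuous_hsq.continuousAt.tendsto.comp hlim)
  have h2 := hcl.mem_of_tendsto h1 (Eventually.of_forall (fun k => ⟨hzs k, rfl⟩))
  exact h2.1

/-- Level sets of `|x|²/2` (Euclidean spheres) are preconnected in dimension at least two. -/
theorem isPreconnected_hsq_level (hn : 2 ≤ n) (c : ℝ) :
    IsPreconnected {x : Fin n → ℝ | hsq x = c} := by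
  by_cases hc : 0 ≤ c
  · have hrank : 1 < Module.rank ℝ (EuclideanSpace ℝ (Fin n)) := by
      rw [← Module.finrank_eq_rank, finrank_euclideanSpace_fin]
      exact_mod_cast hn
    have hS := isPreconnected_sphere hrank (0 : EuclideanSpace ℝ (Fin n)) (Real.sqrt (2 * c))
    have hcont : Continuous (fun x : EuclideanSpace ℝ (Fin n) => (WithLp.ofLp x : Fin n → ℝ)) :=
      PiLp.continuous_ofLp 2 _
    have himg := hS.image _ hcont.continuousOn
    have hset : {x : Fin n → ℝ | hsq x = c}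
        = (fun x : EuclideanSpace ℝ (Fin n) => (WithLp.ofLp x : Fin n → ℝ)) ''
          Metric.sphere (0 : EuclideanSpace ℝ (Fin n)) (Real.sqrt (2 * c)) := by
      ext x
      simp only [Set.mem_ofPred_eq, Set.mem_image, mem_sphere_iff_norm, sub_zero]
      constructor
      · intro hx
        refine ⟨WithLp.toLp 2 x, ?_, rfl⟩
        rw [EuclideanSpace.norm_eq]
        congr 1
        unfold hsq at hx
        simp only [Real.norm_eq_abs, sq_abs]
        linarith
      · rintro ⟨y, hy, rfl⟩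
        rw [EuclideanSpace.norm_eq] at hy
        have h2 : ∑ i, ‖y i‖ ^ 2 = 2 * c := by
          have h3 := congrArg (fun t => t ^ 2) hy
          simp only at h3
          rw [Real.sq_sqrt (Finset.sum_nonneg (fun i _ => sq_nonneg _)),
            Real.sq_sqrt (by linarith)] at h3
          exact h3
        unfold hsq
        simp only [Real.norm_eq_abs, sq_abs] at h2
        have h4 : ∑ k, (WithLp.ofLp y : Fin n → ℝ) k ^ 2 = 2 * c := h2
        rw [h4]
        ring
    rw [hset]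
    exact himg
  · have hempty : {x : Fin n → ℝ | hsq x = c} = ∅ := by
      ext x
      simp only [Set.mem_ofPred_eq, Set.mem_empty_iff_false, iff_false]
      intro hx
      exact hc (hx ▸ hsq_nonneg x)
    rw [hempty]
    exact isPreconnected_empty

theorem radial_convex (n : ℕ) (hn : 2 ≤ n) (Ω : Set (Fin n → ℝ)) (hΩo : IsOpen Ω)
    (hΩc : Convex ℝ Ω) (hΩne : Ω.Nonempty) (J : Set ℝ) (hJo : IsOpen J)
    (hJ : ∀ x ∈ Ω, hsq x ∈ J) (h : ℝ → ℝ) (hreg : ContDiffOn ℝ 4 h J)
    (hpd : ∀ x ∈ Ω, (hess (fun y => h (hsq y)) x).PosDef)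
    (hAM : ∀ x ∈ Ω, affineMaximalOp (fun y => h (hsq y)) x = 0)
    (hcl : IsClosed {p : (Fin n → ℝ) × ℝ | p.1 ∈ Ω ∧ p.2 = h (hsq p.1)}) :
    Ω = Set.univ ∧ ∃ a : ℝ, 0 < a ∧ ∀ x : Fin n → ℝ, h (hsq x) = a * hsq x + h 0 := by
  have hn0 : 0 < n := by omega
  -- Step B: the centre belongs to the domain
  have h0Ω : (0 : Fin n → ℝ) ∈ Ω := by
    obtain ⟨x0, hx0⟩ := hΩne
    have hS := isPreconnected_hsq_level hn (hsq x0)
    have hcont : ∀ z : Fin n → ℝ, hsq z = hsq x0 → ContinuousAt h (hsq z) := by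
      intro z hz
      rw [hz]
      exact hreg.continuousOn.continuousAt (hJo.mem_nhds (hJ x0 hx0))
    have hsub : {x : Fin n → ℝ | hsq x = hsq x0} ⊆ Ω ∪ (closure Ω)ᶜ := by
      intro z hz
      by_cases hzc : z ∈ closure Ω
      · exact Or.inl (mem_of_closed_graph hcl hzc (hcont z hz))
      · exact Or.inr hzc
    have hSΩ : {x : Fin n → ℝ | hsq x = hsq x0} ⊆ Ω := by
      intro z hz
      rcases hsub hz with h1 | h1
      · exact h1
      · exfalso
        obtain ⟨y, hy⟩ := hS Ω (closure Ω)ᶜ hΩo isClosed_closure.isOpen_compl hsub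
          ⟨x0, rfl, hx0⟩ ⟨z, hz, h1⟩
        exact hy.2.2 (subset_closure hy.2.1)
    have hneg : -x0 ∈ Ω := hSΩ (hsq_neg x0)
    have hmid := hΩc hx0 hneg (by norm_num : (0 : ℝ) ≤ 1 / 2) (by norm_num : (0 : ℝ) ≤ 1 / 2)
      (by norm_num)
    have hz : (1 / 2 : ℝ) • x0 + (1 / 2 : ℝ) • (-x0) = 0 := by
      rw [smul_neg, add_neg_cancel]
    rwa [hz] at hmid
  have h0J : (0 : ℝ) ∈ J := by
    have := hJ 0 h0Ω
    rwa [hsq_zero] at this
  obtain ⟨ε, hε, hεJ⟩ := Metric.isOpen_iff.mp hJo 0 h0J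
  -- Step A: the domain is everything
  have hΩuniv : Ω = Set.univ := by
    by_contra hne
    obtain ⟨z, hz⟩ : ∃ z, z ∉ Ω := by
      by_contra hall
      exact hne (Set.eq_univ_of_forall (fun x => by
        by_contra hx
        exact hall ⟨x, hx⟩))
    have hKc : IsCompact (Ωᶜ ∩ {x : Fin n → ℝ | hsq x ≤ hsq z}) := by
      apply Metric.isCompact_of_isClosed_isBounded
      · exact hΩo.isClosed_compl.inter (isClosed_le continuous_hsq continuous_const)
      · refine (Metric.isBounded_closedBall (x := (0 : Fin n → ℝ))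
          (r := Real.sqrt (2 * hsq z))).subset ?_
        intro x hx
        rw [mem_closedBall_zero_iff]
        refine (pi_norm_le_iff_of_nonneg (Real.sqrt_nonneg _)).mpr (fun k => ?_)
        rw [Real.norm_eq_abs]
        exact abs_le_of_hsq_le hx.2 k
    obtain ⟨xs, hxsK, hmin⟩ := hKc.exists_isMinOn ⟨z, hz, le_refl (hsq z)⟩ continuous_hsq.continuousOn
    have hball : ∀ x : Fin n → ℝ, hsq x < hsq xs → x ∈ Ω := by
      intro x hx
      by_contra hxo
      have hxK : x ∈ Ωᶜ ∩ {x : Fin n → ℝ | hsq x ≤ hsq z} := ⟨hxo, hx.le.trans hxsK.2⟩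
      have := isMinOn_iff.mp hmin x hxK
      linarith
    have hspos : 0 < hsq xs := by
      rcases (hsq_nonneg xs).lt_or_eq with h1 | h1
      · exact h1
      · exfalso
        have := hsq_eq_zero h1.symm
        rw [this] at hxsK
        exact hxsK.1 h0Ω
    have hIJ : Set.Ioo (-ε) (hsq xs) ⊆ J := by
      intro s hs
      by_cases hs0 : 0 ≤ s
      · obtain ⟨x, hx⟩ := exists_hsq_eq hn0 hs0
        have := hJ x (hball x (by rw [hx]; exact hs.2))
        rwa [hx] at this
      · apply hεJ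
        rw [Metric.mem_ball, Real.dist_eq, sub_zero, abs_lt]
        exact ⟨hs.1, by linarith⟩
    obtain ⟨a, -, hlin⟩ := Vale.Agent.Results.P252.RadialBall.result n hn
      (Set.Ioo (-ε) (hsq xs)) isOpen_Ioo Set.ordConnected_Ioo ⟨by linarith, hspos⟩ h
      (hreg.mono hIJ)
      (fun x hx => hpd x (hball x hx.2)) (fun x hx => hAM x (hball x hx.2))
    have hlim : Tendsto (fun t : ℝ => (t • xs, a * (t ^ 2 * hsq xs) + h 0)) (𝓝[<] (1 : ℝ))
        (𝓝 (xs, a * hsq xs + h 0)) := by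
      have hc : Continuous (fun t : ℝ => (t • xs, a * (t ^ 2 * hsq xs) + h 0)) := by
        fun_prop
      have := (hc.tendsto 1).mono_left (nhdsWithin_le_nhds (s := Set.Iio (1 : ℝ)))
      simpa using this
    have hev : ∀ᶠ t : ℝ in 𝓝[<] (1 : ℝ), (t • xs, a * (t ^ 2 * hsq xs) + h 0) ∈
        {p : (Fin n → ℝ) × ℝ | p.1 ∈ Ω ∧ p.2 = h (hsq p.1)} := by
      filter_upwards [Ioo_mem_nhdsLT (by norm_num : (0 : ℝ) < 1)] with t ht
      have ht2 : t ^ 2 < 1 := by nlinarith [ht.1, ht.2]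
      have hlt : hsq (t • xs) < hsq xs := by
        rw [hsq_smul]
        nlinarith
      refine ⟨hball _ hlt, ?_⟩
      show a * (t ^ 2 * hsq xs) + h 0 = h (hsq (t • xs))
      rw [hsq_smul]
      have hmem : t ^ 2 * hsq xs ∈ Set.Ioo (-ε) (hsq xs) := by
        constructor
        · have : 0 ≤ t ^ 2 * hsq xs := by positivity
          linarith
        · nlinarith
      exact (hlin _ hmem (by positivity)).symm
    have hmemG := hcl.mem_of_tendsto hlim hev
    exact hxsK.1 hmemG.1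
  refine ⟨hΩuniv, ?_⟩
  have hIJ : Set.Ioi (-ε) ⊆ J := by
    intro s hs
    by_cases hs0 : 0 ≤ s
    · obtain ⟨x, hx⟩ := exists_hsq_eq hn0 hs0
      have := hJ x (by rw [hΩuniv]; exact Set.mem_univ x)
      rwa [hx] at this
    · apply hεJ
      rw [Metric.mem_ball, Real.dist_eq, sub_zero, abs_lt]
      exact ⟨hs, by linarith⟩
  have hmemΩ : ∀ x : Fin n → ℝ, x ∈ Ω := fun x => by rw [hΩuniv]; exact Set.mem_univ x
  obtain ⟨a, ha, hlin⟩ := Vale.Agent.Results.P252.RadialBall.result n hn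
    (Set.Ioi (-ε)) isOpen_Ioi Set.ordConnected_Ioi (by simpa using hε) h
    (hreg.mono hIJ)
    (fun x _ => hpd x (hmemΩ x)) (fun x _ => hAM x (hmemΩ x))
  refine ⟨a, ha, fun x => ?_⟩
  have hx0 := hsq_nonneg x
  exact hlin (hsq x) (by simp only [Set.mem_Ioi]; linarith) hx0

end Vale.Agent.Helper18.P252
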